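/-
P235-M, helper968.  Interface between the words theorem and the embedding theorem (RED1).

A step `i` is the set of all permutations of the wires which respect all levels of `S i`
(a Young subgroup).  `StepLaw f`: for every sequence of steps there is a finite probability law on
sequences of permutations such that every window `[s, s + k)` inside `[0, N)` and every level `a`
is served up to the factor `f N`.
-/
import Vale.Agent.P235.R2.H549.Gamma

namespace VPBruhat

open Equiv Finset

/-- the level `a` (between the wires `< a` and the wires `≥ a`) is respected by `v` -/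
def Keeps {n : ℕ} (a : ℕ) (v : Perm (Fin n)) : Prop :=
  ∀ x : Fin n, (x : ℕ) < a ↔ (v x : ℕ) < a

/-- all levels of `S` are respected (Young subgroup) -/
def Young {n : ℕ} (S : Set ℕ) : Set (Perm (Fin n)) := {v | ∀ a ∈ S, Keeps a v}

/-- product over the window `[s, s + k)`, the step `s` first -/
def pw {n : ℕ} (y : ℕ → Perm (Fin n)) (s : ℕ) : ℕ → Perm (Fin n)
  | 0 => 1
  | k + 1 => y (s + k) * pw y s k

/-- **the law on steps**, with the factor `f N` for `N` steps -/
def StepLaw (f : ℕ → ℝ) : Prop :=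
  ∀ (n N : ℕ) (S : ℕ → Set ℕ), ∃ (Ω : Type) (_ : Fintype Ω) (p : Ω → ℝ)
    (y : Ω → ℕ → Perm (Fin n)),
    (∀ ω, 0 ≤ p ω) ∧ ∑ ω, p ω = 1 ∧ (∀ ω, p ω ≠ 0 → ∀ i, i < N → y ω i ∈ Young (S i)) ∧
    ∀ s k a : ℕ, s + k ≤ N → ∀ y' : ℕ → Perm (Fin n), (∀ i, y' i ∈ Young (S i)) →
      (flux a (pw y' s k) : ℝ) ≤ f N * ∑ ω, p ω * (flux a (pw (y ω) s k) : ℝ)

end VPBruhat
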