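/-
P235-M, helper968.  RED1, part 1: duality between level walks and fluxes.
An extremal permutation of a step sorts every block; the resulting product over a window has
`d x y ≤ |a - b| + 2 * flux a`.
-/
import Vale.Agent.P235.R2.H968.M.Step

namespace VPBruhat

open Equiv Finset

variable {n : ℕ}

/-- the number of wires which start below `a` and are at or above `b` -/
def upc (a b : ℕ) (v : Perm (Fin n)) : ℕ :=
  (univ.filter fun x : Fin n => (x : ℕ) < a ∧ b ≤ (v x : ℕ)).card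

theorem upc_self (a : ℕ) (v : Perm (Fin n)) : upc a a v = flux a v := rfl

theorem card_Ico_fin {a b : ℕ} (ha : a ≤ n) :
    (univ.filter fun x : Fin n => b ≤ (x : ℕ) ∧ (x : ℕ) < a).card = a - b := by
  have : ((univ.filter fun x : Fin n => b ≤ (x : ℕ) ∧ (x : ℕ) < a).image
      (fun x : Fin n => (x : ℕ))) = Finset.Ico b a := by
    ext z
    simp only [Finset.mem_image, Finset.mem_filter, Finset.mem_univ, true_and, Finset.mem_Ico]
    constructor
    · rintro ⟨x, h, rfl⟩; exact h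
    · intro h; exact ⟨⟨z, by omega⟩, h, rfl⟩
  rw [← Nat.card_Ico b a, ← this, Finset.card_image_of_injective _ Fin.val_injective]

theorem card_lt_fin {a : ℕ} (ha : a ≤ n) :
    (univ.filter fun x : Fin n => (x : ℕ) < a).card = a := by
  have := card_Ico_fin (n := n) (a := a) (b := 0) ha
  simpa using this

theorem upc_zero {a : ℕ} (ha : a ≤ n) (v : Perm (Fin n)) : upc a 0 v = a := by
  unfold upc
  simp only [Nat.zero_le, and_true]
  exact card_lt_fin ha

theorem upc_one {a b : ℕ} (ha : a ≤ n) : upc a b (1 : Perm (Fin n)) = a - b := by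
  unfold upc
  rw [← card_Ico_fin (n := n) (b := b) ha]
  congr 1
  ext x
  simp [and_comm]

/-- the wires which are in `[b, a)` after `v` -/
theorem card_image_Ico {a b : ℕ} (ha : a ≤ n) (v : Perm (Fin n)) :
    (univ.filter fun x : Fin n => b ≤ (v x : ℕ) ∧ (v x : ℕ) < a).card = a - b := by
  rw [← card_Ico_fin (n := n) (b := b) ha]
  refine Finset.card_bij (fun x _ => v x) ?_ ?_ ?_
  · intro x hx
    simpa using hx
  · intro x _ y _ h; exact v.injective h
  · intro x hx
    refine ⟨v.symm x, by simpa using hx, by simp⟩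

theorem upc_le_flux {a b : ℕ} (ha : a ≤ n) (v : Perm (Fin n)) :
    upc a b v ≤ flux a v + (a - b) := by
  rw [← card_image_Ico (b := b) ha v]
  unfold upc flux
  refine (Finset.card_le_card ?_).trans (Finset.card_union_le _ _)
  intro x hx
  simp only [Finset.mem_filter, Finset.mem_univ, true_and, Finset.mem_union] at hx ⊢
  rcases lt_or_ge (v x : ℕ) a with h | h
  · exact Or.inr ⟨hx.2, h⟩
  · exact Or.inl ⟨hx.1, h⟩

/-- respected levels do not change the count -/
theorem upc_keeps {a c : ℕ} {y v : Perm (Fin n)} (hy : Keeps c y) :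
    upc a c (y * v) = upc a c v := by
  unfold upc
  congr 1
  ext x
  simp only [Finset.mem_filter, Finset.mem_univ, true_and]
  rw [Perm.mul_apply]
  have := hy (v x)
  constructor
  · rintro ⟨h1, h2⟩; exact ⟨h1, by by_contra hc; exact absurd (this.1 (by omega)) (by omega)⟩
  · rintro ⟨h1, h2⟩; exact ⟨h1, by by_contra hc; exact absurd (this.2 (by omega)) (by omega)⟩

theorem keeps_zero (y : Perm (Fin n)) : Keeps 0 y := fun x => by simp

theorem keeps_top (y : Perm (Fin n)) : Keeps n y := fun x => by simp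

theorem one_mem_young (S : Set ℕ) : (1 : Perm (Fin n)) ∈ Young S := fun _ _ _ => by simp

/-- **The extremal permutation of a step.** -/
theorem exists_sort (S : Set ℕ) (a : ℕ) (v : Perm (Fin n)) :
    ∃ y ∈ Young (n := n) S, ∀ b h₁ h₂ : ℕ, h₁ ≤ b → b ≤ h₂ → h₂ ≤ n → (h₁ ∈ S ∨ h₁ = 0) →
      (h₂ ∈ S ∨ h₂ = n) → (∀ c ∈ S, c ≤ h₁ ∨ h₂ ≤ c) →
      upc a h₁ v ≤ upc a b (y * v) ∨ upc a h₂ v + (h₂ - b) ≤ upc a b (y * v) := by
  classical
  set Φ : Perm (Fin n) → ℕ := fun y =>
    ∑ x ∈ univ.filter (fun x : Fin n => (x : ℕ) < a), ((y (v x) : Fin n) : ℕ) with hΦ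
  obtain ⟨y, hyS, hmax⟩ := Set.exists_max_image (Young (n := n) S) Φ (Set.toFinite _)
    ⟨1, one_mem_young S⟩
  refine ⟨y, hyS, ?_⟩
  intro b h₁ h₂ hb1 hb2 hn2 hS1 hS2 hno
  by_contra hcon
  push Not at hcon
  obtain ⟨hc1, hc2⟩ := hcon
  have hk1 : Keeps h₁ y := by
    rcases hS1 with h | h
    · exact hyS _ h
    · rw [h]; exact keeps_zero y
  have hk2 : Keeps h₂ y := by
    rcases hS2 with h | h
    · exact hyS _ h
    · rw [h]; exact keeps_top y
  rw [← upc_keeps hk1] at hc1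
  rw [← upc_keeps hk2] at hc2
  -- a red wire in `[h₁, b)`
  obtain ⟨x₀, hx₀, hx₀'⟩ : ∃ x, x ∈ (univ.filter fun x : Fin n => (x : ℕ) < a ∧
      h₁ ≤ ((y * v) x : ℕ)) ∧ x ∉ (univ.filter fun x : Fin n => (x : ℕ) < a ∧
      b ≤ ((y * v) x : ℕ)) := by
    by_contra hc
    push Not at hc
    exact absurd (Finset.card_le_card hc) (not_le.2 hc1)
  simp only [Finset.mem_filter, Finset.mem_univ, true_and, not_and, not_le] at hx₀ hx₀'
  simp only [Perm.mul_apply] at hx₀ hx₀'
  have hx₀b := hx₀' hx₀.1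
  -- a free place in `[b, h₂)`
  obtain ⟨q, hqb, hqh, hq⟩ : ∃ q : Fin n, b ≤ (q : ℕ) ∧ (q : ℕ) < h₂ ∧
      ∀ x : Fin n, (x : ℕ) < a → y (v x) ≠ q := by
    by_contra hc
    push Not at hc
    have hsub : (univ.filter fun q : Fin n => b ≤ (q : ℕ) ∧ (q : ℕ) < h₂) ⊆
        ((univ.filter fun x : Fin n => (x : ℕ) < a ∧ b ≤ ((y * v) x : ℕ)) \
          (univ.filter fun x : Fin n => (x : ℕ) < a ∧ h₂ ≤ ((y * v) x : ℕ))).image
          (fun x => y (v x)) := by
      intro q hq
      simp only [Finset.mem_filter, Finset.mem_univ, true_and] at hq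
      obtain ⟨x, hxa, hx⟩ := hc q hq.1 hq.2
      simp only [Finset.mem_image, Finset.mem_sdiff, Finset.mem_filter, Finset.mem_univ, true_and]
      have hx' : (y * v) x = q := by rw [Perm.mul_apply]; exact hx
      refine ⟨x, ⟨⟨hxa, by rw [hx']; exact hq.1⟩, ?_⟩, hx⟩
      rw [hx']; rintro ⟨_, h⟩; omega
    have h1 := Finset.card_le_card hsub
    rw [card_Ico_fin hn2] at h1
    have h2 := h1.trans Finset.card_image_le
    have hsub2 : (univ.filter fun x : Fin n => (x : ℕ) < a ∧ h₂ ≤ ((y * v) x : ℕ)) ⊆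
        (univ.filter fun x : Fin n => (x : ℕ) < a ∧ b ≤ ((y * v) x : ℕ)) := by
      intro x hx
      simp only [Finset.mem_filter, Finset.mem_univ, true_and] at hx ⊢
      exact ⟨hx.1, by omega⟩
    rw [Finset.card_sdiff_of_subset hsub2] at h2
    have h3 := Finset.card_le_card hsub2
    unfold upc at hc2
    omega
  -- exchange
  set p : Fin n := y (v x₀) with hp
  have hpq : (p : ℕ) < q := lt_of_lt_of_le hx₀b hqb
  have hmem : swap p q * y ∈ Young (n := n) S := by
    intro c hc z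
    have hz := hyS c hc z
    have hxx := hx₀.2
    rw [hz, Perm.mul_apply]
    have hpc : (p : ℕ) < c ↔ (q : ℕ) < c := by
      rcases hno c hc with h | h
      · constructor <;> intro _ <;> omega
      · constructor <;> intro _ <;> omega
    by_cases h1 : y z = p
    · rw [h1, swap_apply_left]; exact hpc
    by_cases h2 : y z = q
    · rw [h2, swap_apply_right]; exact hpc.symm
    rw [swap_apply_of_ne_of_ne h1 h2]
  have hlt : Φ y < Φ (swap p q * y) := by
    refine Finset.sum_lt_sum ?_ ⟨x₀, by simpa using hx₀.1, ?_⟩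
    · intro x hx
      simp only [Finset.mem_filter, Finset.mem_univ, true_and] at hx
      rw [Perm.mul_apply]
      by_cases h1 : y (v x) = p
      · rw [h1, swap_apply_left]; exact hpq.le
      · rw [swap_apply_of_ne_of_ne h1 (hq x hx)]
    · rw [Perm.mul_apply, ← hp, swap_apply_left]; exact hpq
  exact absurd (hmax _ hmem) (not_le.2 hlt)

/-- neighbours of `b` in `S` -/
theorem exists_nb (S : Set ℕ) {b : ℕ} (hb : b ≤ n) :
    ∃ h₁ h₂ : ℕ, h₁ ≤ b ∧ b ≤ h₂ ∧ h₂ ≤ n ∧ (h₁ ∈ S ∨ h₁ = 0) ∧ (h₂ ∈ S ∨ h₂ = n) ∧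
      ∀ c ∈ S, c ≤ h₁ ∨ h₂ ≤ c := by
  classical
  have hne2 : ∃ c, b ≤ c ∧ (c ∈ S ∨ c = n) := ⟨n, hb, Or.inr rfl⟩
  set h₁ := Nat.findGreatest (fun c => c ∈ S ∨ c = 0) b with hh1
  have p1 : h₁ ∈ S ∨ h₁ = 0 := by
    have := Nat.findGreatest_spec (P := fun c => c ∈ S ∨ c = 0) (m := 0) (n := b)
      (Nat.zero_le _) (Or.inr rfl)
    exact this
  refine ⟨h₁, Nat.find hne2, Nat.findGreatest_le _, (Nat.find_spec hne2).1,
    Nat.find_min' hne2 ⟨hb, Or.inr rfl⟩, p1, (Nat.find_spec hne2).2, ?_⟩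
  intro c hc
  rcases le_or_gt c b with h | h
  · left; exact Nat.le_findGreatest h (Or.inl hc)
  · right; exact Nat.find_min' hne2 ⟨h.le, Or.inl hc⟩

end VPBruhat
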