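/-
P235-M, helper968.  RED1, part 2: `d x y ≤ |a - b| + 2 * flux a` for the extremal product of
a window (integer heights).
-/
import Vale.Agent.P235.R2.H968.M.Red1

namespace VPBruhat

open Equiv Finset

variable {n : ℕ}

/-- the extremal permutation of a step -/
noncomputable def srt (S : Set ℕ) (a : ℕ) (v : Perm (Fin n)) : Perm (Fin n) :=
  (exists_sort S a v).choose

theorem srt_mem (S : Set ℕ) (a : ℕ) (v : Perm (Fin n)) : srt S a v ∈ Young (n := n) S :=
  (exists_sort S a v).choose_spec.1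

theorem srt_spec (S : Set ℕ) (a : ℕ) (v : Perm (Fin n)) (b h₁ h₂ : ℕ) (k1 : h₁ ≤ b) (k2 : b ≤ h₂)
    (k3 : h₂ ≤ n) (k4 : h₁ ∈ S ∨ h₁ = 0) (k5 : h₂ ∈ S ∨ h₂ = n) (k6 : ∀ c ∈ S, c ≤ h₁ ∨ h₂ ≤ c) :
    upc a h₁ v ≤ upc a b (srt S a v * v) ∨ upc a h₂ v + (h₂ - b) ≤ upc a b (srt S a v * v) :=
  (exists_sort S a v).choose_spec.2 b h₁ h₂ k1 k2 k3 k4 k5 k6

/-- greedy states -/
noncomputable def gst (S : ℕ → Set ℕ) (s a : ℕ) : ℕ → Perm (Fin n)
  | 0 => 1
  | k + 1 => srt (S (s + k)) a (gst S s a k) * gst S s a k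

/-- greedy permutations -/
noncomputable def gy (S : ℕ → Set ℕ) (s a : ℕ) (i : ℕ) : Perm (Fin n) :=
  if s ≤ i then srt (S i) a (gst S s a (i - s)) else 1

theorem gy_mem (S : ℕ → Set ℕ) (s a i : ℕ) : gy (n := n) S s a i ∈ Young (S i) := by
  unfold gy
  split_ifs
  · exact srt_mem _ _ _
  · exact one_mem_young _

theorem pw_gy (S : ℕ → Set ℕ) (s a : ℕ) : ∀ k, pw (gy (n := n) S s a) s k = gst S s a k
  | 0 => rfl
  | k + 1 => by
      rw [pw, gst, pw_gy S s a k, gy, if_pos (by omega)]
      congr 3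
      all_goals simp

/-- the cost of a walk which ends at level `b` -/
noncomputable def cst (a b : ℕ) (v : Perm (Fin n)) : ℝ := (b : ℝ) - a + 2 * (upc a b v : ℝ)

/-- the hypotheses on bags -/
structure Bags {V : Type*} (d : V → V → ℝ) (h : V → ℕ) (B : ℕ → Set V) : Prop where
  self : ∀ x, d x x ≤ 0
  tri : ∀ x y z, d x z ≤ d x y + d y z
  bag : ∀ i, ∀ u ∈ B i, ∀ v ∈ B i, d u v ≤ |(h u : ℝ) - h v|

/-- shared levels -/
def shared {V : Type*} (h : V → ℕ) (B : ℕ → Set V) (i : ℕ) : Set ℕ :=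
  {c | ∃ u, u ∈ B i ∧ u ∈ B (i + 1) ∧ h u = c}

theorem walk_claim {V : Type*} {d : V → V → ℝ} {h : V → ℕ} {B : ℕ → Set V} (H : Bags d h B)
    {s : ℕ} {x : V} (hx : x ∈ B s) (ha : h x ≤ n) :
    ∀ k b : ℕ, b ≤ n → (∃ v ∈ B (s + k), d x v + |(h v : ℝ) - b| ≤
        cst (h x) b (gst (n := n) (shared h B) s (h x) k)) ∨
      ((h x : ℝ) + b ≤ cst (h x) b (gst (n := n) (shared h B) s (h x) k)) ∨
      (((n : ℝ) - h x) + (n - b) ≤ cst (h x) b (gst (n := n) (shared h B) s (h x) k)) := by
  set a := h x with hax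
  intro k
  induction k with
  | zero =>
    intro b hb
    left
    refine ⟨x, by simpa using hx, ?_⟩
    have h0 := H.self x
    unfold cst
    rw [gst, upc_one ha, ← hax]
    rcases le_total a b with hab | hab
    · rw [Nat.sub_eq_zero_of_le hab]
      have : (a : ℝ) ≤ b := by exact_mod_cast hab
      rw [abs_of_nonpos (by linarith)]
      push_cast
      linarith
    · rw [Nat.cast_sub hab]
      have : (b : ℝ) ≤ a := by exact_mod_cast hab
      rw [abs_of_nonneg (by linarith)]
      linarith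
  | succ k ih =>
    intro b hb
    set v := gst (n := n) (shared h B) s a k with hv
    have hv' : gst (n := n) (shared h B) s a (k + 1) = srt (shared h B (s + k)) a v * v := rfl
    rw [hv']
    set v' := srt (shared h B (s + k)) a v * v with hvv
    obtain ⟨h₁, h₂, k1, k2, k3, k4, k5, k6⟩ := exists_nb (n := n) (shared h B (s + k)) hb
    have r1 : (h₁ : ℝ) ≤ b := by exact_mod_cast k1
    have r2 : (b : ℝ) ≤ h₂ := by exact_mod_cast k2
    have r3 : (h₂ : ℝ) ≤ n := by exact_mod_cast k3
    have ra : (a : ℝ) ≤ n := by exact_mod_cast ha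
    rcases srt_spec (shared h B (s + k)) a v b h₁ h₂ k1 k2 k3 k4 k5 k6 with hc | hc
    · have hc' : (upc a h₁ v : ℝ) ≤ upc a b v' := by exact_mod_cast hc
      have hcst : cst a h₁ v + (b - h₁) ≤ cst a b v' := by unfold cst; linarith
      rcases k4 with ⟨u, hu1, hu2, hu3⟩ | k4
      · rcases ih h₁ (k1.trans hb) with ⟨w, hw, hw'⟩ | h' | h'
        · left
          refine ⟨u, by simpa [add_assoc] using hu2, ?_⟩
          have h1 := H.tri x w u
          have h2 := H.bag _ w hw u hu1
          rw [hu3] at h2 ⊢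
          rw [abs_of_nonpos (by linarith : (h₁ : ℝ) - b ≤ 0)]
          linarith
        · right; left; linarith
        · right; right; linarith
      · right; left
        rw [k4, upc_zero ha] at hc'
        unfold cst
        linarith
    · have hc' : (upc a h₂ v : ℝ) + (h₂ - b) ≤ upc a b v' := by
        have : ((upc a h₂ v + (h₂ - b) : ℕ) : ℝ) ≤ upc a b v' := by exact_mod_cast hc
        rwa [Nat.cast_add, Nat.cast_sub k2] at this
      have hcst : cst a h₂ v + (h₂ - b) ≤ cst a b v' := by unfold cst; linarith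
      rcases k5 with ⟨u, hu1, hu2, hu3⟩ | k5
      · rcases ih h₂ k3 with ⟨w, hw, hw'⟩ | h' | h'
        · left
          refine ⟨u, by simpa [add_assoc] using hu2, ?_⟩
          have h1 := H.tri x w u
          have h2 := H.bag _ w hw u hu1
          rw [hu3] at h2 ⊢
          rw [abs_of_nonneg (by linarith : (0 : ℝ) ≤ (h₂ : ℝ) - b)]
          linarith
        · right; left; linarith
        · right; right; linarith
      · right; right
        rw [k5] at hc'
        have : (0 : ℝ) ≤ upc a n v := Nat.cast_nonneg _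
        unfold cst
        linarith

/-- **duality**: the distance is at most `|a - b| + 2 * flux a` for the greedy product. -/
theorem dist_le_flux {V : Type*} {d : V → V → ℝ} {h : V → ℕ} {B : ℕ → Set V} (H : Bags d h B)
    {M : ℕ} (hM : ∀ x, M ≤ h x ∧ h x + M ≤ n) (hd : ∀ x y, d x y ≤ 2 * M)
    {s k : ℕ} {x y : V} (hx : x ∈ B s) (hy : y ∈ B (s + k)) :
    d x y ≤ |(h x : ℝ) - h y| +
      2 * (flux (h x) (pw (gy (n := n) (shared h B) s (h x)) s k) : ℝ) := by
  have ha : h x ≤ n := le_trans (Nat.le_add_right _ _) (hM x).2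
  have hb : h y ≤ n := le_trans (Nat.le_add_right _ _) (hM y).2
  rw [pw_gy]
  set v := gst (n := n) (shared h B) s (h x) k with hv
  have key : d x y ≤ cst (h x) (h y) v := by
    rcases walk_claim H hx ha k (h y) hb with ⟨w, hw, hw'⟩ | h' | h'
    · have h1 := H.tri x w y
      have h2 := H.bag _ w hw y hy
      linarith
    · have h1 : (M : ℝ) ≤ h x := by exact_mod_cast (hM x).1
      have h2 : (M : ℝ) ≤ h y := by exact_mod_cast (hM y).1
      have := hd x y
      linarith
    · have h1 : (h x : ℝ) + M ≤ n := by exact_mod_cast (hM x).2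
      have h2 : (h y : ℝ) + M ≤ n := by exact_mod_cast (hM y).2
      have := hd x y
      linarith
  have h3 : (upc (h x) (h y) v : ℝ) ≤ flux (h x) v + ((h x - h y : ℕ) : ℝ) := by
    exact_mod_cast upc_le_flux ha v
  refine key.trans ?_
  unfold cst
  rcases le_total (h x) (h y) with hab | hab
  · rw [Nat.sub_eq_zero_of_le hab] at h3
    have : (h x : ℝ) ≤ h y := by exact_mod_cast hab
    rw [abs_of_nonpos (by linarith)]
    push_cast at h3
    linarith
  · rw [Nat.cast_sub hab] at h3
    have : (h y : ℝ) ≤ h x := by exact_mod_cast hab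
    rw [abs_of_nonneg (by linarith)]
    linarith

end VPBruhat
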