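/-
P235-M, helper968.  RED1, part 3: from the law on steps to a cut measure (integer heights).
-/
import Vale.Agent.P235.R2.H968.M.Red2

namespace VPBruhat

open Equiv Finset

variable {n : ℕ}

theorem pw_add (y : ℕ → Perm (Fin n)) (s : ℕ) : ∀ k, pw y 0 (s + k) = pw y s k * pw y 0 s
  | 0 => by simp [pw]
  | k + 1 => by
      rw [← add_assoc, pw, pw_add y s k, pw, zero_add, mul_assoc]

/-- number of wires on different sides of the levels `a` (before `v`) and `b` (after `v`) -/
def xc (a b : ℕ) (v : Perm (Fin n)) : ℕ :=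
  (univ.filter fun w : Fin n => ¬((w : ℕ) < a ↔ (v w : ℕ) < b)).card

theorem card_lt_image {b : ℕ} (hb : b ≤ n) (v : Perm (Fin n)) :
    (univ.filter fun w : Fin n => (v w : ℕ) < b).card = b := by
  have := card_image_Ico (b := 0) hb v
  simpa using this

theorem xc_ge_left {a b : ℕ} (ha : a ≤ n) (hb : b ≤ n) (v : Perm (Fin n)) : a ≤ b + xc a b v := by
  calc a = (univ.filter fun w : Fin n => (w : ℕ) < a).card := (card_lt_fin ha).symm
    _ ≤ ((univ.filter fun w : Fin n => (v w : ℕ) < b) ∪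
        (univ.filter fun w : Fin n => ¬((w : ℕ) < a ↔ (v w : ℕ) < b))).card := by
      refine Finset.card_le_card ?_
      intro w hw
      simp only [Finset.mem_filter, Finset.mem_univ, true_and, Finset.mem_union] at hw ⊢
      by_cases h : (v w : ℕ) < b
      · exact Or.inl h
      · right; intro hc; exact h (hc.1 hw)
    _ ≤ _ := (Finset.card_union_le _ _).trans (by rw [card_lt_image hb, xc])

theorem xc_ge_right {a b : ℕ} (ha : a ≤ n) (hb : b ≤ n) (v : Perm (Fin n)) : b ≤ a + xc a b v := by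
  calc b = (univ.filter fun w : Fin n => (v w : ℕ) < b).card := (card_lt_image hb v).symm
    _ ≤ ((univ.filter fun w : Fin n => (w : ℕ) < a) ∪
        (univ.filter fun w : Fin n => ¬((w : ℕ) < a ↔ (v w : ℕ) < b))).card := by
      refine Finset.card_le_card ?_
      intro w hw
      simp only [Finset.mem_filter, Finset.mem_univ, true_and, Finset.mem_union] at hw ⊢
      by_cases h : (w : ℕ) < a
      · exact Or.inl h
      · right; intro hc; exact h (hc.2 hw)
    _ ≤ _ := (Finset.card_union_le _ _).trans (by rw [card_lt_fin ha, xc])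

theorem flux_le_xc {a b : ℕ} (ha : a ≤ n) (hb : b ≤ n) (v : Perm (Fin n)) :
    flux a v ≤ 2 * xc a b v := by
  have h1 : flux a v ≤ xc a b v + (b - a) := by
    rw [← card_image_Ico (b := a) hb v]
    unfold flux xc
    refine (Finset.card_le_card ?_).trans (Finset.card_union_le _ _)
    intro w hw
    simp only [Finset.mem_filter, Finset.mem_univ, true_and, Finset.mem_union] at hw ⊢
    by_cases h : (v w : ℕ) < b
    · right; exact ⟨hw.2, h⟩
    · left; intro hc; exact h (hc.1 hw.1)
  have h2 := xc_ge_right ha hb v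
  omega

/-- convexity of the bags -/
def Conv {V : Type*} (B : ℕ → Set V) : Prop :=
  ∀ i j k, i ≤ j → j ≤ k → ∀ x, x ∈ B i → x ∈ B k → x ∈ B j

theorem stay {V : Type*} {h : V → ℕ} {B : ℕ → Set V} (hc : Conv B) {N : ℕ}
    {y : ℕ → Perm (Fin n)} (hy : ∀ i, i < N → y i ∈ Young (shared h B i)) {x : V} {i : ℕ}
    (hx : x ∈ B i) (z : Fin n) : ∀ k, i + k ≤ N → x ∈ B (i + k) →
      ((pw y 0 (i + k) z : ℕ) < h x ↔ (pw y 0 i z : ℕ) < h x)
  | 0, _, _ => Iff.rfl
  | k + 1, hk, hx' => by
      have h1 : x ∈ B (i + k) := hc i (i + k) (i + (k + 1)) (by omega) (by omega) x hx hx'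
      rw [← stay hc hy hx z k (by omega) h1, ← add_assoc, pw, zero_add, Perm.mul_apply]
      exact (hy (i + k) (by omega) (h x) ⟨x, h1, hx', rfl⟩ _).symm

theorem stay' {V : Type*} {h : V → ℕ} {B : ℕ → Set V} (hc : Conv B) {N : ℕ}
    {y : ℕ → Perm (Fin n)} (hy : ∀ i, i < N → y i ∈ Young (shared h B i)) {x : V} {i j : ℕ}
    (hi : i ≤ N) (hj : j ≤ N) (hxi : x ∈ B i) (hxj : x ∈ B j) (z : Fin n) :
    ((pw y 0 i z : ℕ) < h x ↔ (pw y 0 j z : ℕ) < h x) := by
  rcases le_total i j with hij | hij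
  · obtain ⟨k, rfl⟩ := Nat.exists_eq_add_of_le hij
    exact (stay hc hy hxi z k hj hxj).symm
  · obtain ⟨k, rfl⟩ := Nat.exists_eq_add_of_le hij
    exact stay hc hy hxj z k hi hxi

/-- the cut of the wire `z` -/
def cutb {V : Type*} (h t : V → ℕ) (y : ℕ → Perm (Fin n)) (z : Fin n) (x : V) : Bool :=
  decide ((pw y 0 (t x) z : ℕ) < h x)

theorem cutb_sum {V : Type*} {h t : V → ℕ} {B : ℕ → Set V} (hc : Conv B) {N : ℕ}
    (ht : ∀ x, t x ≤ N ∧ x ∈ B (t x))
    {y : ℕ → Perm (Fin n)} (hy : ∀ i, i < N → y i ∈ Young (shared h B i)) {x x' : V} {s k : ℕ}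
    (hk : s + k ≤ N) (hx : x ∈ B s) (hx' : x' ∈ B (s + k)) :
    ∑ z : Fin n, (if cutb h t y z x = cutb h t y z x' then (0 : ℝ) else 1) =
      (xc (h x) (h x') (pw y s k) : ℝ) := by
  classical
  have e1 : ∀ z : Fin n, (if cutb h t y z x = cutb h t y z x' then (0 : ℝ) else 1) =
      if ¬(((pw y 0 s z : Fin n) : ℕ) < h x ↔ ((pw y s k (pw y 0 s z) : Fin n) : ℕ) < h x') then 1
        else 0 := by
    intro z
    have h1 := stay' hc hy (ht x).1 (by omega : s ≤ N) (ht x).2 hx z
    have h2 := stay' hc hy (ht x').1 hk (ht x').2 hx' z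
    rw [pw_add, Perm.mul_apply] at h2
    by_cases h3 : (((pw y 0 s z : Fin n) : ℕ) < h x ↔
        ((pw y s k (pw y 0 s z) : Fin n) : ℕ) < h x')
    · rw [if_neg (not_not.2 h3), if_pos]
      unfold cutb
      rw [decide_eq_decide, h1, h2]
      exact h3
    · rw [if_pos h3, if_neg]
      unfold cutb
      rw [decide_eq_decide, h1, h2]
      exact h3
  rw [Finset.sum_congr rfl (fun z _ => e1 z)]
  rw [Equiv.sum_comp (pw y 0 s) (fun w : Fin n =>
    if ¬(((w : Fin n) : ℕ) < h x ↔ ((pw y s k w : Fin n) : ℕ) < h x') then (1 : ℝ) else 0)]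
  rw [Finset.sum_boole]
  rfl

/-- **RED1, integer heights.** -/
theorem int_cuts {f : ℕ → ℝ} (hf : StepLaw f) {V : Type} {d : V → V → ℝ} {h t : V → ℕ}
    {B : ℕ → Set V} (H : Bags d h B) (hc : Conv B) {N n M : ℕ} (hfN : 0 ≤ f N)
    (ht : ∀ x, t x ≤ N ∧ x ∈ B (t x)) (hsym : ∀ x y, d x y = d y x)
    (hM : ∀ x, M ≤ h x ∧ h x + M ≤ n) (hd : ∀ x y, d x y ≤ 2 * M) :
    ∃ (ι : Type) (_ : Fintype ι) (w : ι → ℝ) (c : ι → V → Bool), (∀ i, 0 ≤ w i) ∧
      (∀ i ≤ N, ∀ x ∈ B i, ∀ x' ∈ B i,
        ∑ j, w j * (if c j x = c j x' then (0 : ℝ) else 1) = |(h x : ℝ) - h x'|) ∧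
      ∀ x x', d x x' ≤ (1 + 4 * f N) * ∑ j, w j * (if c j x = c j x' then (0 : ℝ) else 1) := by
  classical
  obtain ⟨Ω, _, p, y, hp, hp1, hyY, hserve⟩ := hf n N (shared h B)
  have hn : ∀ x, h x ≤ n := fun x => le_trans (Nat.le_add_right _ _) (hM x).2
  have hsum : ∀ (x x' : V) (s k : ℕ), s + k ≤ N → x ∈ B s → x' ∈ B (s + k) →
      ∑ j : Ω × Fin n, p j.1 * (if cutb h t (y j.1) j.2 x = cutb h t (y j.1) j.2 x'
        then (0 : ℝ) else 1) = ∑ ω, p ω * (xc (h x) (h x') (pw (y ω) s k) : ℝ) := by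
    intro x x' s k hk hx hx'
    rw [Fintype.sum_prod_type]
    refine Finset.sum_congr rfl (fun ω _ => ?_)
    show ∑ z : Fin n, p ω * (if cutb h t (y ω) z x = cutb h t (y ω) z x'
        then (0 : ℝ) else 1) = _
    rw [← Finset.mul_sum]
    by_cases hpω : p ω = 0
    · rw [hpω, zero_mul, zero_mul]
    · rw [cutb_sum hc ht (hyY ω hpω) hk hx hx']
  refine ⟨Ω × Fin n, inferInstance, fun j => p j.1, fun j x => cutb h t (y j.1) j.2 x,
    fun j => hp _, ?_, ?_⟩
  · intro i hi x hx x' hx'
    have e := hsum x x' i 0 (by simpa using hi) hx (by simpa using hx')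
    rw [e]
    have : ∀ ω, (xc (h x) (h x') (pw (y ω) i 0) : ℝ) = |(h x : ℝ) - h x'| := by
      intro ω
      have hle : xc (h x) (h x') (pw (y ω) i 0) = (h x - h x') + (h x' - h x) := by
        show xc (h x) (h x') (1 : Perm (Fin n)) = _
        unfold xc
        rcases le_total (h x) (h x') with hab | hab
        · rw [Nat.sub_eq_zero_of_le hab, zero_add, ← card_Ico_fin (n := n) (b := h x) (hn x')]
          congr 1
          ext w
          rw [Finset.mem_filter, Finset.mem_filter]
          simp only [Finset.mem_univ, true_and, Perm.one_apply]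
          constructor
          · intro hq
            by_cases g1 : (w : ℕ) < h x <;> by_cases g2 : (w : ℕ) < h x'
            · exact absurd ⟨fun _ => g2, fun _ => g1⟩ hq
            · omega
            · omega
            · exact absurd ⟨fun q => absurd q g1, fun q => absurd q g2⟩ hq
          · intro hq hq'
            omega
        · rw [Nat.sub_eq_zero_of_le hab, add_zero, ← card_Ico_fin (n := n) (b := h x') (hn x)]
          congr 1
          ext w
          rw [Finset.mem_filter, Finset.mem_filter]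
          simp only [Finset.mem_univ, true_and, Perm.one_apply]
          constructor
          · intro hq
            by_cases g1 : (w : ℕ) < h x <;> by_cases g2 : (w : ℕ) < h x'
            · exact absurd ⟨fun _ => g2, fun _ => g1⟩ hq
            · omega
            · omega
            · exact absurd ⟨fun q => absurd q g1, fun q => absurd q g2⟩ hq
          · intro hq hq'
            omega
      rw [hle]
      rcases le_total (h x) (h x') with hab | hab
      · rw [Nat.sub_eq_zero_of_le hab, zero_add, Nat.cast_sub hab]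
        have : (h x : ℝ) ≤ h x' := by exact_mod_cast hab
        rw [abs_of_nonpos (by linarith)]; ring
      · rw [Nat.sub_eq_zero_of_le hab, add_zero, Nat.cast_sub hab]
        have : (h x' : ℝ) ≤ h x := by exact_mod_cast hab
        rw [abs_of_nonneg (by linarith)]
    rw [Finset.sum_congr rfl (fun ω _ => by rw [this ω]), ← Finset.sum_mul, hp1, one_mul]
  · -- one direction
    have main : ∀ (x x' : V) (s k : ℕ), s + k ≤ N → x ∈ B s → x' ∈ B (s + k) →
        d x x' ≤ (1 + 4 * f N) * ∑ j : Ω × Fin n, p j.1 *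
          (if cutb h t (y j.1) j.2 x = cutb h t (y j.1) j.2 x' then (0 : ℝ) else 1) := by
      intro x x' s k hk hx hx'
      rw [hsum x x' s k hk hx hx']
      set R := ∑ ω, p ω * (xc (h x) (h x') (pw (y ω) s k) : ℝ) with hR
      have hR0 : 0 ≤ R := Finset.sum_nonneg fun ω _ => mul_nonneg (hp ω) (Nat.cast_nonneg _)
      have h1 : |(h x : ℝ) - h x'| ≤ R := by
        have : |(h x : ℝ) - h x'| = ∑ ω, p ω * |(h x : ℝ) - h x'| := by
          rw [← Finset.sum_mul, hp1, one_mul]
        rw [this, hR]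
        refine Finset.sum_le_sum fun ω _ => mul_le_mul_of_nonneg_left ?_ (hp ω)
        have e1 : (h x : ℝ) ≤ h x' + (xc (h x) (h x') (pw (y ω) s k) : ℝ) := by
          exact_mod_cast xc_ge_left (hn x) (hn x') (pw (y ω) s k)
        have e2 : (h x' : ℝ) ≤ h x + (xc (h x) (h x') (pw (y ω) s k) : ℝ) := by
          exact_mod_cast xc_ge_right (hn x) (hn x') (pw (y ω) s k)
        rw [abs_le]; constructor <;> linarith
      have h2 : ∑ ω, p ω * (flux (h x) (pw (y ω) s k) : ℝ) ≤ 2 * R := by
        rw [hR, Finset.mul_sum]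
        refine Finset.sum_le_sum fun ω _ => ?_
        have : (flux (h x) (pw (y ω) s k) : ℝ) ≤ 2 * (xc (h x) (h x') (pw (y ω) s k) : ℝ) := by
          exact_mod_cast flux_le_xc (hn x) (hn x') (pw (y ω) s k)
        calc p ω * (flux (h x) (pw (y ω) s k) : ℝ)
            ≤ p ω * (2 * (xc (h x) (h x') (pw (y ω) s k) : ℝ)) :=
              mul_le_mul_of_nonneg_left this (hp ω)
          _ = _ := by ring
      have h3 := dist_le_flux (n := n) H hM hd hx hx'
      have h4 := hserve s k (h x) hk (gy (shared h B) s (h x)) (fun i => gy_mem _ _ _ i)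
      have h5 : f N * ∑ ω, p ω * (flux (h x) (pw (y ω) s k) : ℝ) ≤ f N * (2 * R) :=
        mul_le_mul_of_nonneg_left h2 hfN
      nlinarith
    intro x x'
    rcases le_total (t x) (t x') with hxx | hxx
    · obtain ⟨k, hk⟩ := Nat.exists_eq_add_of_le hxx
      exact main x x' (t x) k (by rw [← hk]; exact (ht x').1) (ht x).2
        (by rw [← hk]; exact (ht x').2)
    · obtain ⟨k, hk⟩ := Nat.exists_eq_add_of_le hxx
      have := main x' x (t x') k (by rw [← hk]; exact (ht x).1) (ht x').2
        (by rw [← hk]; exact (ht x).2)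
      rw [hsym x x']
      refine this.trans (le_of_eq ?_)
      congr 1
      refine Finset.sum_congr rfl fun j _ => ?_
      congr 1
      by_cases h : cutb h t (y j.1) j.2 x = cutb h t (y j.1) j.2 x'
      · rw [if_pos h, if_pos h.symm]
      · rw [if_neg h, if_neg (fun hc => h hc.symm)]

end VPBruhat
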