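/-
P235-M, helper968.  RED1, part 4: the bag theorem for graphs with real heights.
-/
import Vale.Agent.P235.R2.H968.M.Red3
import Vale.Agent.P235.H263.CutEmb
import Vale.Agent.P235.R2.RED.Defs

namespace VPBruhat

open Equiv Finset Vale.Agent.P235

theorem win_eq_pw {T : ℕ} (v : ℕ → Perm (Fin T)) (i : ℕ) : ∀ m, Red.win v i m = pw v i m
  | 0 => rfl
  | m + 1 => by rw [Red.win, pw, win_eq_pw v i m]

theorem fixes_iff {T : ℕ} (S : Set ℕ) (v : Perm (Fin T)) : Red.Fixes S v ↔ v ∈ Young S :=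
  ⟨fun h a ha x => (h a ha x).symm, fun h a ha x => (h a ha x).symm⟩

theorem stepLaw_of_MStar {f : ℕ → ℝ} (hf : Red.MStar f) : StepLaw f := by
  intro n N S
  obtain ⟨Ω, _, p, v, hp, hp1, hv, hs⟩ := hf N n S
  refine ⟨Ω, inferInstance, p, v, hp, hp1, fun ω _ i _ => (fixes_iff _ _).1 (hv ω i), ?_⟩
  intro s k a hk y' hy'
  have := hs s k a hk y' (fun j => (fixes_iff _ _).2 (hy' j))
  simpa only [win_eq_pw] using this

/-- rounding of real heights -/
theorem exists_round {V : Type} [Finite V] (h : V → ℝ) (D ε : ℝ) (hD : 1 ≤ D) (hε : 0 < ε) :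
    ∃ (K : ℝ) (h' : V → ℕ) (M n : ℕ), 0 < K ∧ K * D ≤ 2 * M ∧
      (∀ x, M ≤ h' x ∧ h' x + M ≤ n) ∧
      ∀ x y, K * |h x - h y| ≤ |(h' x : ℝ) - h' y| ∧
        |(h' x : ℝ) - h' y| ≤ (1 + ε) * K * |h x - h y| := by
  classical
  have := Fintype.ofFinite V
  set c : ℝ := (Fintype.card V : ℝ) + 1 with hc
  have hc0 : 0 < c := by positivity
  set K : ℝ := 2 + ∑ p : V × V, if h p.1 < h p.2 then c / (ε * (h p.2 - h p.1)) else 0 with hKdef
  have hterm : ∀ p : V × V, 0 ≤ (if h p.1 < h p.2 then c / (ε * (h p.2 - h p.1)) else 0) := by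
    intro p
    split_ifs with hp
    · exact div_nonneg hc0.le (mul_nonneg hε.le (by linarith))
    · exact le_rfl
  have hK2 : 2 ≤ K := by
    have : 0 ≤ ∑ p : V × V, (if h p.1 < h p.2 then c / (ε * (h p.2 - h p.1)) else 0) :=
      Finset.sum_nonneg fun p _ => hterm p
    linarith
  have hK0 : 0 < K := by linarith
  have hKc : ∀ x y, h x < h y → c ≤ ε * K * (h y - h x) := by
    intro x y hxy
    have h1 : c / (ε * (h y - h x)) ≤ K := by
      have := Finset.single_le_sum (fun p _ => hterm p) (Finset.mem_univ (x, y))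
      rw [if_pos hxy] at this
      linarith
    have h2 : 0 < ε * (h y - h x) := mul_pos hε (by linarith)
    rw [div_le_iff₀ h2] at h1
    linarith
  set m : ℝ := D + ∑ v, |h v| with hm
  have hmv : ∀ v, D ≤ h v + m := by
    intro v
    have := Finset.single_le_sum (fun p _ => abs_nonneg (h p)) (Finset.mem_univ v)
    have := neg_abs_le (h v)
    linarith
  set r : V → ℕ := fun v => (univ.filter fun w => h w < h v).card with hr
  set h' : V → ℕ := fun v => ⌊K * (h v + m)⌋₊ + r v with hh'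
  set M : ℕ := ⌊K * D⌋₊ with hM
  have hKm : ∀ v, 0 ≤ K * (h v + m) := fun v => mul_nonneg hK0.le (by linarith [hmv v])
  have hlt : ∀ x y, h x < h y → K * (h y - h x) ≤ (h' y : ℝ) - h' x ∧
      (h' y : ℝ) - h' x ≤ (1 + ε) * K * (h y - h x) := by
    intro x y hxy
    have f1 := Nat.floor_le (hKm x)
    have f2 := Nat.floor_le (hKm y)
    have f3 := Nat.lt_floor_add_one (K * (h x + m))
    have f4 := Nat.lt_floor_add_one (K * (h y + m))
    have r1 : r x + 1 ≤ r y := by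
      refine Finset.card_lt_card ?_
      rw [Finset.ssubset_iff_of_subset]
      · exact ⟨x, by simpa using hxy, by simp⟩
      · intro w hw
        simp only [Finset.mem_filter, Finset.mem_univ, true_and] at hw ⊢
        exact hw.trans hxy
    have r2 : r y ≤ Fintype.card V := by
      exact (Finset.card_le_univ _)
    have r1' : (r x : ℝ) + 1 ≤ r y := by exact_mod_cast r1
    have r2' : (r y : ℝ) ≤ Fintype.card V := by exact_mod_cast r2
    have r3' : (0 : ℝ) ≤ r x := Nat.cast_nonneg _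
    have e1 : (h' x : ℝ) = ⌊K * (h x + m)⌋₊ + r x := by rw [hh']; push_cast; rfl
    have e2 : (h' y : ℝ) = ⌊K * (h y + m)⌋₊ + r y := by rw [hh']; push_cast; rfl
    have e3 : K * (h y + m) - K * (h x + m) = K * (h y - h x) := by ring
    have e4 := hKc x y hxy
    rw [e1, e2]
    constructor
    · linarith
    · have : (1 + ε) * K * (h y - h x) = K * (h y - h x) + ε * K * (h y - h x) := by ring
      rw [this]
      linarith
  have heq : ∀ x y, h x = h y → h' x = h' y := by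
    intro x y hxy
    simp only [hh', hr, hxy]
  refine ⟨K, h', M, ∑ v, (h' v + M), hK0, ?_, ?_, ?_⟩
  · have := Nat.lt_floor_add_one (K * D)
    have h2 : 2 * 1 ≤ K * D := mul_le_mul hK2 hD (by norm_num) hK0.le
    rw [hM]
    linarith
  · intro x
    constructor
    · have : M ≤ ⌊K * (h x + m)⌋₊ :=
        Nat.floor_le_floor (mul_le_mul_of_nonneg_left (hmv x) hK0.le)
      exact this.trans (Nat.le_add_right _ _)
    · exact Finset.single_le_sum (f := fun v => h' v + M) (fun v _ => Nat.zero_le _)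
        (Finset.mem_univ x)
  · intro x y
    rcases lt_trichotomy (h x) (h y) with hxy | hxy | hxy
    · obtain ⟨g1, g2⟩ := hlt x y hxy
      have g0 : 0 ≤ K * (h y - h x) := mul_nonneg hK0.le (by linarith)
      rw [abs_of_nonpos (by linarith : h x - h y ≤ 0),
        abs_of_nonpos (by linarith : (h' x : ℝ) - h' y ≤ 0)]
      simp only [neg_sub]
      exact ⟨g1, g2⟩
    · rw [hxy, heq x y hxy]
      simp
    · obtain ⟨g1, g2⟩ := hlt y x hxy
      have g0 : 0 ≤ K * (h x - h y) := mul_nonneg hK0.le (by linarith)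
      rw [abs_of_nonneg (by linarith : 0 ≤ h x - h y),
        abs_of_nonneg (by linarith : 0 ≤ (h' x : ℝ) - h' y)]
      exact ⟨g1, g2⟩

section pd

variable {V : Type} {G : SimpleGraph V} {ℓ : Sym2 V → ℝ}

theorem wk_nonneg (hℓ : ∀ e ∈ G.edgeSet, 0 < ℓ e) {x y : V} (w : G.Walk x y) :
    0 ≤ (w.edges.map ℓ).sum := by
  apply List.sum_nonneg
  intro a ha
  rw [List.mem_map] at ha
  obtain ⟨e, he, rfl⟩ := ha
  exact (hℓ e (w.edges_subset_edgeSet he)).le

theorem pd_le (hℓ : ∀ e ∈ G.edgeSet, 0 < ℓ e) {x y : V} (w : G.Walk x y) :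
    pathDist G ℓ x y ≤ (w.edges.map ℓ).sum :=
  ciInf_le ⟨0, by rintro _ ⟨w, rfl⟩; exact wk_nonneg hℓ w⟩ w

theorem pd_nonneg (hℓ : ∀ e ∈ G.edgeSet, 0 < ℓ e) (x y : V) : 0 ≤ pathDist G ℓ x y :=
  Real.iInf_nonneg fun w => wk_nonneg hℓ w

theorem pd_self (hℓ : ∀ e ∈ G.edgeSet, 0 < ℓ e) (x : V) : pathDist G ℓ x x ≤ 0 := by
  simpa only [SimpleGraph.Walk.edges_nil, List.map_nil, List.sum_nil] using
    pd_le hℓ (SimpleGraph.Walk.nil : G.Walk x x)

theorem pd_adj (hℓ : ∀ e ∈ G.edgeSet, 0 < ℓ e) {x y : V} (h : G.Adj x y) :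
    pathDist G ℓ x y ≤ ℓ s(x, y) := by
  have := pd_le hℓ h.toWalk
  simpa only [SimpleGraph.Walk.edges_cons, SimpleGraph.Walk.edges_nil, List.map_cons,
    List.map_nil, List.sum_cons, List.sum_nil, add_zero] using this

theorem pd_symm (hc : G.Connected) (hℓ : ∀ e ∈ G.edgeSet, 0 < ℓ e) (x y : V) :
    pathDist G ℓ x y = pathDist G ℓ y x := by
  have key : ∀ a b : V, pathDist G ℓ a b ≤ pathDist G ℓ b a := by
    intro a b
    have : Nonempty (G.Walk b a) := hc b a
    refine le_ciInf fun w => ?_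
    refine (pd_le hℓ w.reverse).trans ?_
    rw [SimpleGraph.Walk.edges_reverse, List.map_reverse, List.sum_reverse]
  exact le_antisymm (key x y) (key y x)

theorem pd_tri (hc : G.Connected) (hℓ : ∀ e ∈ G.edgeSet, 0 < ℓ e) (x y z : V) :
    pathDist G ℓ x z ≤ pathDist G ℓ x y + pathDist G ℓ y z := by
  have : Nonempty (G.Walk x y) := hc x y
  have : Nonempty (G.Walk y z) := hc y z
  have h1 : ∀ w : G.Walk y z, pathDist G ℓ x z - (w.edges.map ℓ).sum ≤ pathDist G ℓ x y := by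
    intro w
    refine le_ciInf fun w' => ?_
    have := pd_le hℓ (w'.append w)
    rw [SimpleGraph.Walk.edges_append, List.map_append, List.sum_append] at this
    linarith only [this]
  have h2 : pathDist G ℓ x z - pathDist G ℓ x y ≤ pathDist G ℓ y z := by
    refine le_ciInf fun w => ?_
    linarith [h1 w]
  linarith

theorem wk_semi {ρ : V → V → ℝ} {K : ℝ}
    (h0 : ∀ x, ρ x x = 0) (ht : ∀ x y z, ρ x z ≤ ρ x y + ρ y z)
    (he : ∀ u v, G.Adj u v → ρ u v ≤ K * ℓ s(u, v)) {x y : V} (p : G.Walk x y) :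
    ρ x y ≤ K * (p.edges.map ℓ).sum := by
  induction p with
  | nil => simp [h0]
  | @cons x a y h p ih =>
    rw [SimpleGraph.Walk.edges_cons, List.map_cons, List.sum_cons, mul_add]
    exact (ht x a y).trans (add_le_add (he _ _ h) ih)

theorem pd_semi {ρ : V → V → ℝ} {K : ℝ}
    (hc : G.Connected) (hK : 0 < K)
    (h0 : ∀ x, ρ x x = 0) (ht : ∀ x y z, ρ x z ≤ ρ x y + ρ y z)
    (he : ∀ u v, G.Adj u v → ρ u v ≤ K * ℓ s(u, v)) (x y : V) :
    ρ x y ≤ K * pathDist G ℓ x y := by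
  have : Nonempty (G.Walk x y) := hc x y
  rw [← div_le_iff₀' hK]
  refine le_ciInf fun p => ?_
  rw [div_le_iff₀' hK]
  exact wk_semi h0 ht he p

end pd

/-- **RED1 (bag theorem).**  A finite connected graph with positive edge lengths, contiguous bags
`B 0, …, B N` covering all vertices and edges, and a height `h` with `pathDist = |h u - h v|`
inside every bag: `pathDist` embeds into `L₁` with every distortion `> 1 + 4 f N`. -/
theorem bag_embeds {f : ℕ → ℝ} (hf : StepLaw f) {V : Type} [Finite V] {G : SimpleGraph V}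
    {ℓ : Sym2 V → ℝ} (hc : G.Connected) (hℓ : ∀ e ∈ G.edgeSet, 0 < ℓ e) {N : ℕ} {B : ℕ → Set V}
    {h : V → ℝ} (cover : ∀ v, ∃ i, i ≤ N ∧ v ∈ B i)
    (edge : ∀ u v, G.Adj u v → ∃ i, i ≤ N ∧ u ∈ B i ∧ v ∈ B i)
    (conv : ∀ i j k, i ≤ j → j ≤ k → k ≤ N → ∀ v, v ∈ B i → v ∈ B k → v ∈ B j)
    (line : ∀ i, i ≤ N → ∀ u ∈ B i, ∀ v ∈ B i, pathDist G ℓ u v = |h u - h v|)
    (hfN : 0 ≤ f N) {C : ℝ} (hC : 1 + 4 * f N < C) : EmbedsL1 (pathDist G ℓ) C := by
  classical
  have := Fintype.ofFinite V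
  have hF : 0 < 1 + 4 * f N := by linarith
  set ε : ℝ := C / (1 + 4 * f N) - 1 with hεdef
  have hε : 0 < ε := by
    have : 1 < C / (1 + 4 * f N) := by rwa [one_lt_div hF]
    linarith
  set D : ℝ := 1 + ∑ p : V × V, pathDist G ℓ p.1 p.2 with hD
  have hDle : ∀ x y, pathDist G ℓ x y ≤ D := by
    intro x y
    have := Finset.single_le_sum (f := fun p : V × V => pathDist G ℓ p.1 p.2)
      (fun p _ => pd_nonneg hℓ _ _) (Finset.mem_univ (x, y))
    have h2 : pathDist G ℓ x y ≤ ∑ p : V × V, pathDist G ℓ p.1 p.2 := this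
    linarith
  have hD1 : 1 ≤ D := by
    have : 0 ≤ ∑ p : V × V, pathDist G ℓ p.1 p.2 :=
      Finset.sum_nonneg fun p _ => pd_nonneg hℓ _ _
    linarith
  obtain ⟨K, h', M, n, hK, hKD, hM, hround⟩ := exists_round h D ε hD1 hε
  choose t ht using cover
  let B' : ℕ → Set V := fun i => {v | i ≤ N ∧ v ∈ B i}
  have hBags : Bags (fun x y => K * pathDist G ℓ x y) h' B' := by
    refine ⟨fun x => ?_, fun x y z => ?_, ?_⟩
    · exact mul_nonpos_of_nonneg_of_nonpos hK.le (pd_self hℓ x)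
    · show K * pathDist G ℓ x z ≤ K * pathDist G ℓ x y + K * pathDist G ℓ y z
      rw [← mul_add]
      exact mul_le_mul_of_nonneg_left (pd_tri hc hℓ x y z) hK.le
    · rintro i u ⟨hi, hu⟩ v ⟨_, hv⟩
      show K * pathDist G ℓ u v ≤ _
      rw [line i hi u hu v hv]
      exact (hround u v).1
  have hConv : Conv B' := by
    rintro i j k hij hjk x ⟨hi, hxi⟩ ⟨hk, hxk⟩
    exact ⟨hjk.trans hk, conv i j k hij hjk hk x hxi hxk⟩
  obtain ⟨ι, _, w, c, hw, hbag, hlow⟩ := int_cuts hf hBags hConv (N := N) hfN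
    (fun x => ⟨(ht x).1, (ht x).1, (ht x).2⟩)
    (fun x y => by
      show K * pathDist G ℓ x y = K * pathDist G ℓ y x
      rw [pd_symm hc hℓ]) hM
    (fun x y => (mul_le_mul_of_nonneg_left (hDle x y) hK.le).trans hKD)
  have hup : ∀ x y, ∑ j, w j * (if c j x = c j y then (0 : ℝ) else 1) ≤
      ((1 + ε) * K) * pathDist G ℓ x y := by
    refine pd_semi hc (mul_pos (by linarith) hK) ?_ ?_ ?_
    · intro x; simp
    · intro x y z
      rw [← Finset.sum_add_distrib]
      refine Finset.sum_le_sum fun j _ => ?_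
      rw [← mul_add]
      refine mul_le_mul_of_nonneg_left ?_ (hw j)
      cases c j x <;> cases c j y <;> cases c j z <;> norm_num
    · intro u v huv
      obtain ⟨i, hi, hu, hv⟩ := edge u v huv
      rw [hbag i hi u ⟨hi, hu⟩ v ⟨hi, hv⟩]
      refine (hround u v).2.trans ?_
      rw [← line i hi u hu v hv]
      exact mul_le_mul_of_nonneg_left (pd_adj hℓ huv) (mul_nonneg (by linarith) hK.le)
  have hCe : C = ((1 + ε) * K) / (K / (1 + 4 * f N)) := by
    rw [hεdef]
    field_simp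
    ring
  rw [hCe]
  refine H263.embeds_of_cuts (div_pos hK hF) hw c (fun x y => ?_) hup
  rw [div_mul_eq_mul_div, div_le_iff₀ hF, mul_comm _ (1 + 4 * f N)]
  exact hlow x y

/-- the same from `Red.MStar` -/
theorem bag_embeds_MStar {f : ℕ → ℝ} (hf : Red.MStar f) {V : Type} [Finite V]
    {G : SimpleGraph V} {ℓ : Sym2 V → ℝ} (hc : G.Connected) (hℓ : ∀ e ∈ G.edgeSet, 0 < ℓ e)
    {N : ℕ} {B : ℕ → Set V} {h : V → ℝ} (cover : ∀ v, ∃ i, i ≤ N ∧ v ∈ B i)
    (edge : ∀ u v, G.Adj u v → ∃ i, i ≤ N ∧ u ∈ B i ∧ v ∈ B i)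
    (conv : ∀ i j k, i ≤ j → j ≤ k → k ≤ N → ∀ v, v ∈ B i → v ∈ B k → v ∈ B j)
    (line : ∀ i, i ≤ N → ∀ u ∈ B i, ∀ v ∈ B i, pathDist G ℓ u v = |h u - h v|)
    (hfN : 0 ≤ f N) {C : ℝ} (hC : 1 + 4 * f N < C) : EmbedsL1 (pathDist G ℓ) C :=
  bag_embeds (stepLaw_of_MStar hf) hc hℓ cover edge conv line hfN hC

end VPBruhat
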